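import Vale.Agent.P240.R2.H918.Syl

/-!
Coprime action: the fixed points of an invariant Sylow subgroup form a Sylow subgroup of the fixed
points, and the order formula (Wielandt) for arbitrary `p'`-groups.
-/

namespace Vale.Agent.P240.R2.H918

open Subgroup Vale.Agent.P240.K

section
variable {G : Type*} [Group G]

lemma Inv.inf_centralizer {F N : Subgroup G} (hF : ∀ x ∈ F, ∀ y ∈ F, x * y = y * x)
    (h : Inv F N) {E : Subgroup G} (hE : E ≤ F) : Inv F (N ⊓ centralizer (E : Set G)) := by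
  intro x hx q hq
  rw [Subgroup.mem_inf] at hq ⊢
  refine ⟨h x hx q hq.1, ?_⟩
  rw [mem_centralizer_iff] at *
  intro e he
  have h1 := hq.2 e he
  have h2 := hF e (hE he) x hx
  have h3 : x⁻¹ * e = e * x⁻¹ := by
    rw [inv_mul_eq_iff_eq_mul, ← mul_assoc, ← h2, mul_inv_cancel_right]
  calc e * (x * q * x⁻¹) = (e * x) * q * x⁻¹ := by group
    _ = x * (e * q) * x⁻¹ := by rw [h2]; group
    _ = x * q * (e * x⁻¹) := by rw [h1]; group
    _ = x * q * x⁻¹ * e := by rw [← h3]; group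

/-- an `r`-subgroup of `N` centralised by `F` lies in an `F`-invariant Sylow subgroup of `N` -/
lemma exists_inv_syl_ge [Finite G] {p r : ℕ} [Fact p.Prime] [Fact r.Prime] {N F S : Subgroup G}
    (hpN : ¬ p ∣ Nat.card N) (hF : IsPGroup p F) (hFN : Inv F N) (hSN : S ≤ N)
    (hS : IsPGroup r S) (hFS : Inv F S) : ∃ Q, IsSyl r N Q ∧ Inv F Q ∧ S ≤ Q := by
  obtain ⟨T, hT, hmax⟩ := (Set.toFinite {T : Subgroup G | S ≤ T ∧ T ≤ N ∧ IsPGroup r T ∧
    Inv F T}).exists_le_maximal (a := S) ⟨le_rfl, hSN, hS, hFS⟩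
  obtain ⟨⟨hST, hTN, hTr, hFT⟩, hmax'⟩ := hmax
  set M : Subgroup G := N ⊓ normalizer (T : Set G) with hM
  have hTM : T ≤ M := le_inf hTN le_normalizer
  have hFM : Inv F M := by
    intro x hx m hm
    rw [hM, Subgroup.mem_inf] at hm ⊢
    refine ⟨hFN x hx m hm.1, ?_⟩
    rw [mem_normalizer_iff] at *
    intro t
    have h1 : ∀ t, x * t * x⁻¹ ∈ T ↔ t ∈ T := by
      intro t
      refine ⟨fun h => ?_, fun h => hFT x hx t h⟩
      have h2 := hFT _ (inv_mem hx) _ h
      have h3 : x⁻¹ * (x * t * x⁻¹) * x⁻¹⁻¹ = t := by group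
      rwa [h3] at h2
    have h2 : x * m * x⁻¹ * t * (x * m * x⁻¹)⁻¹ = x * (m * (x⁻¹ * t * x) * m⁻¹) * x⁻¹ := by group
    rw [h2, h1, ← hm.2 (x⁻¹ * t * x), ← h1 (x⁻¹ * t * x)]
    have h3 : x * (x⁻¹ * t * x) * x⁻¹ = t := by group
    rw [h3]
  have hpM : ¬ p ∣ Nat.card M := fun h => hpN (h.trans (card_dvd_of_le inf_le_left))
  obtain ⟨R, hR, hFR⟩ := exists_inv_syl (r := r) hpM hF hFM
  -- `T ≤ R`
  have hTR : T ≤ R := by
    obtain ⟨Q, hQ, hTQ⟩ := exists_syl_ge hTr hTM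
    obtain ⟨m, hm, hmQ⟩ := hQ.conj hR
    intro t ht
    have h1 : m⁻¹ * t * m⁻¹⁻¹ ∈ T := by
      have h2 : m⁻¹ ∈ normalizer (T : Set G) := inv_mem (Subgroup.mem_inf.1 hm).2
      exact (mem_normalizer_iff.1 h2 t).1 ht
    have h2 := hmQ _ (hTQ h1)
    have h3 : m * (m⁻¹ * t * m⁻¹⁻¹) * m⁻¹ = t := by group
    rwa [h3] at h2
  have hRT : R ≤ T := hmax' ⟨hST.trans hTR, hR.1.trans inf_le_left, hR.isPGroup, hFR⟩ hTR
  have hTR' : T = R := le_antisymm hTR hRT
  refine ⟨T, ?_, hFT, hST⟩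
  -- `T` is a Sylow subgroup of `N`
  obtain ⟨Q, hQ, hTQ⟩ := exists_syl_ge hTr hTN
  suffices h : T = Q by rw [h]; exact hQ
  by_contra hne
  have hlt : T < Q := lt_of_le_of_ne hTQ hne
  have hQr := hQ.isPGroup
  have hnil : Group.IsNilpotent Q := hQr.isNilpotent
  have hNC : NormalizerCondition Q := Group.normalizerCondition_of_isNilpotent
  have hlt' : T.subgroupOf Q < ⊤ := by
    rw [lt_top_iff_ne_top]
    intro h
    rw [subgroupOf_eq_top] at h
    exact hlt.not_ge h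
  have h1 := hNC _ hlt'
  obtain ⟨y, hy, hyT⟩ := SetLike.exists_of_lt h1
  -- `Q ⊓ normalizer T` is an `r`-subgroup of `M`
  have hyM : (y : G) ∈ Q ⊓ normalizer (T : Set G) := by
    rw [Subgroup.mem_inf]
    refine ⟨y.2, ?_⟩
    rw [mem_normalizer_iff] at hy ⊢
    intro t
    refine ⟨fun ht => ?_, fun ht => ?_⟩
    · have := (hy ⟨t, hTQ ht⟩).1 (mem_subgroupOf.2 ht)
      exact mem_subgroupOf.1 this
    · have htQ : t ∈ Q := by
        have h2 := mul_mem (mul_mem (inv_mem y.2) (hTQ ht)) y.2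
        have h3 : (y : G)⁻¹ * (y * t * (y : G)⁻¹) * y = t := by group
        rwa [h3] at h2
      have := (hy ⟨t, htQ⟩).2 (mem_subgroupOf.2 ht)
      exact mem_subgroupOf.1 this
  have h2 : Nat.card (Q ⊓ normalizer (T : Set G) : Subgroup G) ≤ Nat.card T := by
    rw [hTR']
    refine hR.card_le (hQr.to_le inf_le_left) (le_inf (inf_le_left.trans hQ.1) ?_)
    rw [← hTR']
    exact inf_le_right
  have h3 : T ≤ Q ⊓ normalizer (T : Set G) := le_inf hTQ le_normalizer
  have h4 : T = Q ⊓ normalizer (T : Set G) := eq_of_le_of_card_ge h3 h2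
  exact hyT (mem_subgroupOf.2 (h4 ▸ hyM))

/-- fixed points of an invariant Sylow subgroup -/
lemma card_syl_cent [Finite G] {p r : ℕ} [Fact p.Prime] [Fact r.Prime] {N F Q : Subgroup G}
    (hpN : ¬ p ∣ Nat.card N) (hF : IsPGroup p F) (hFc : ∀ x ∈ F, ∀ y ∈ F, x * y = y * x)
    (hFN : Inv F N) (h : IsSyl r N Q) (hQ : Inv F Q) :
    Nat.card (Q ⊓ centralizer (F : Set G) : Subgroup G) =
      r ^ (Nat.card (N ⊓ centralizer (F : Set G) : Subgroup G)).factorization r := by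
  obtain ⟨S, hS, -⟩ := exists_syl_ge (r := r) (N := N ⊓ centralizer (F : Set G)) (S := ⊥)
    IsPGroup.of_bot bot_le
  have hSN : S ≤ N := hS.1.trans inf_le_left
  have hSF : ∀ s ∈ S, ∀ x ∈ F, x * s = s * x := fun s hs x hx =>
    mem_centralizer_iff.1 (Subgroup.mem_inf.1 (hS.1 hs)).2 x hx
  have hFS : Inv F S := by
    intro x hx s hs
    rw [hSF s hs x hx, mul_inv_cancel_right]
    exact hs
  obtain ⟨T, hT, hFT, hST⟩ := exists_inv_syl_ge hpN hF hFN hSN hS.isPGroup hFS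
  obtain ⟨n, hn, hnT⟩ := conj_inv hpN hF hFN hT h hFT hQ
  rw [← hS.2]
  refine le_antisymm (hS.card_le (h.isPGroup.to_le inf_le_left)
    (le_inf (inf_le_left.trans h.1) inf_le_right)) ?_
  refine Nat.card_le_card_of_injective (fun s : S => (⟨n * s * n⁻¹, Subgroup.mem_inf.2
    ⟨hnT s (hST s.2), ?_⟩⟩ : (Q ⊓ centralizer (F : Set G) : Subgroup G))) ?_
  · exact mul_mem (mul_mem (Subgroup.mem_inf.1 hn).2 (Subgroup.mem_inf.1 (hS.1 s.2)).2)
      (inv_mem (Subgroup.mem_inf.1 hn).2)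
  · intro s s' hss
    have h1 : n * s * n⁻¹ = n * s' * n⁻¹ := congrArg Subtype.val hss
    exact Subtype.ext (mul_left_cancel (mul_right_cancel h1))

lemma wt_append (Λ Λ' : List (Subgroup G × ℕ)) (F : Subgroup G) :
    wt (Λ ++ Λ') F = wt Λ F * wt Λ' F := by
  simp [wt]

lemma wt_nil (F : Subgroup G) : wt [] F = 1 := by
  simp [wt]

/-- **Wielandt's order formula**: coprime action of an elementary abelian `p`-group `P` on an
arbitrary `p'`-group `N`. -/
theorem exists_weights_gen [Finite G] {p : ℕ} [hp : Fact p.Prime] {P N : Subgroup G}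
    (hPc : ∀ x ∈ P, ∀ y ∈ P, x * y = y * x) (hPp : ∀ x ∈ P, x ^ p = 1)
    (hpN : ¬ p ∣ Nat.card N) (hPN : ∀ x ∈ P, ∀ q ∈ N, x * q * x⁻¹ ∈ N) :
    ∃ Λ : List (Subgroup G × ℕ), (∀ a ∈ Λ, Hyp p P a) ∧ ∀ F ≤ P,
      (Nat.card N : ℤ) = Nat.card (N ⊓ centralizer (F : Set G) : Subgroup G) * wt Λ F := by
  have hPp' : ∀ F ≤ P, IsPGroup p F := fun F hF x =>
    ⟨1, by rw [pow_one]; exact Subtype.ext (hPp x (hF x.2))⟩
  have key : ∀ s : Finset ℕ, (∀ r ∈ s, r.Prime) → ∃ Λ : List (Subgroup G × ℕ),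
      (∀ a ∈ Λ, Hyp p P a) ∧ ∀ F ≤ P, ((∏ r ∈ s, r ^ (Nat.card N).factorization r : ℕ) : ℤ) =
        ((∏ r ∈ s, r ^ (Nat.card (N ⊓ centralizer (F : Set G) : Subgroup G)).factorization r :
          ℕ) : ℤ) * wt Λ F := by
    intro s
    induction s using Finset.induction_on with
    | empty => exact fun _ => ⟨[], by simp, fun F _ => by simp [wt_nil]⟩
    | insert r s hr ih =>
      intro hs
      have : Fact r.Prime := ⟨hs r (Finset.mem_insert_self _ _)⟩
      obtain ⟨Λ, h1, h2⟩ := ih fun q hq => hs q (Finset.mem_insert_of_mem hq)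
      obtain ⟨Q, hQ, hPQ⟩ := exists_inv_syl (r := r) hpN (hPp' P le_rfl) hPN
      have hpQ : ¬ p ∣ Nat.card Q := fun h => hpN (h.trans (card_dvd_of_le hQ.1))
      have hsol : Group.IsSolvable Q := by
        have : Group.IsNilpotent Q := hQ.isPGroup.isNilpotent
        infer_instance
      obtain ⟨Λ', h3, h4⟩ := exists_weights hPc hPp _ Q rfl hsol hpQ hPQ
      refine ⟨Λ' ++ Λ, ?_, fun F hF => ?_⟩
      · intro a ha
        rcases List.mem_append.1 ha with h | h
        · exact h3 a h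
        · exact h1 a h
      · rw [Finset.prod_insert hr, Finset.prod_insert hr, wt_append]
        have h5 := h4 F hF
        rw [card_syl_cent hpN (hPp' F hF) (fun x hx y hy => hPc x (hF hx) y (hF hy))
          (fun x hx q hq => hPN x (hF hx) q hq) hQ (fun x hx q hq => hPQ x (hF hx) q hq),
          hQ.2] at h5
        have h6 := h2 F hF
        push_cast at h5 h6 ⊢
        rw [h5, h6]
        ring
  obtain ⟨Λ, h1, h2⟩ := key (Nat.card N).primeFactors fun r hr => Nat.prime_of_mem_primeFactors hr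
  refine ⟨Λ, h1, fun F hF => ?_⟩
  have h3 := h2 F hF
  have h4 : ∏ r ∈ (Nat.card N).primeFactors, r ^ (Nat.card N).factorization r = Nat.card N :=
    Nat.prod_factorization_pow_eq_self Nat.card_pos.ne'
  have h5 : ∏ r ∈ (Nat.card N).primeFactors,
      r ^ (Nat.card (N ⊓ centralizer (F : Set G) : Subgroup G)).factorization r =
      Nat.card (N ⊓ centralizer (F : Set G) : Subgroup G) := by
    have h6 : (Nat.card (N ⊓ centralizer (F : Set G) : Subgroup G)).primeFactors ⊆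
        (Nat.card N).primeFactors :=
      Nat.primeFactors_mono (card_dvd_of_le inf_le_left) Nat.card_pos.ne'
    rw [← Finset.prod_subset h6]
    · exact Nat.prod_factorization_pow_eq_self Nat.card_pos.ne'
    · intro r _ hr
      rw [← Nat.support_factorization, Finsupp.notMem_support_iff] at hr
      rw [hr, pow_zero]
  rw [h4, h5] at h3
  exact h3

end

end Vale.Agent.P240.R2.H918
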