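import Vale.Agent.P240.Bdl.B1

/-!
Coprime action of a `p`-group `F` on a `p'`-group `N` (both subgroups of a finite group):
invariant Sylow subgroups, and their fixed points.
-/

namespace Vale.Agent.P240.R2.H918

open Subgroup Vale.Agent.P240.K

section
variable {G : Type*} [Group G]

/-- `Q` is a Sylow `r`-subgroup of the subgroup `N`. -/
def IsSyl (r : ℕ) (N Q : Subgroup G) : Prop :=
  Q ≤ N ∧ Nat.card Q = r ^ (Nat.card N).factorization r

/-- `x Q x⁻¹ ≤ Q` for all `x ∈ F` -/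
def Inv (F Q : Subgroup G) : Prop := ∀ x ∈ F, ∀ q ∈ Q, x * q * x⁻¹ ∈ Q

lemma IsSyl.isPGroup {r : ℕ} {N Q : Subgroup G} (h : IsSyl r N Q) : IsPGroup r Q :=
  IsPGroup.of_card h.2

lemma isSyl_map [Finite G] {r : ℕ} [Fact r.Prime] {N : Subgroup G} (Q : Sylow r N) :
    IsSyl r N ((Q : Subgroup N).map N.subtype) := by
  refine ⟨map_subtype_le _, ?_⟩
  rw [Nat.card_congr ((Q : Subgroup N).equivMapOfInjective N.subtype
    N.subtype_injective).symm.toEquiv]
  exact Q.card_eq_multiplicity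

lemma exists_syl_ge [Finite G] {r : ℕ} [Fact r.Prime] {N S : Subgroup G} (hS : IsPGroup r S)
    (hSN : S ≤ N) : ∃ Q, IsSyl r N Q ∧ S ≤ Q := by
  have h1 : IsPGroup r (S.subgroupOf N) :=
    hS.of_injective (Subgroup.subgroupOfEquivOfLe hSN).toMonoidHom
      (Subgroup.subgroupOfEquivOfLe hSN).injective
  obtain ⟨Q, hQ⟩ := h1.exists_le_sylow
  refine ⟨_, isSyl_map Q, fun s hs => ⟨⟨s, hSN hs⟩, hQ (mem_subgroupOf.2 hs), rfl⟩⟩

lemma IsSyl.card_le [Finite G] {r : ℕ} [Fact r.Prime] {N Q S : Subgroup G} (h : IsSyl r N Q)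
    (hS : IsPGroup r S) (hSN : S ≤ N) : Nat.card S ≤ Nat.card Q := by
  obtain ⟨Q', hQ', hle⟩ := exists_syl_ge hS hSN
  rw [h.2, ← hQ'.2]
  exact Nat.card_le_card_of_injective _ (inclusion_injective hle)

lemma IsSyl.conj [Finite G] {r : ℕ} [Fact r.Prime] {N Q Q' : Subgroup G} (h : IsSyl r N Q)
    (h' : IsSyl r N Q') : ∃ n ∈ N, ∀ q ∈ Q, n * q * n⁻¹ ∈ Q' := by
  have hc : ∀ {Q : Subgroup G}, IsSyl r N Q →
      Nat.card (Q.subgroupOf N) = r ^ (Nat.card N).factorization r := by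
    intro Q h
    rw [Nat.card_congr (Subgroup.subgroupOfEquivOfLe h.1).toEquiv]
    exact h.2
  obtain ⟨n, hn⟩ := MulAction.exists_smul_eq N (Sylow.ofCard (Q.subgroupOf N) (hc h))
    (Sylow.ofCard (Q'.subgroupOf N) (hc h'))
  refine ⟨n, n.2, fun q hq => ?_⟩
  have h2 : n * (⟨q, h.1 hq⟩ : N) * n⁻¹ ∈ (Sylow.ofCard (Q'.subgroupOf N) (hc h') : Subgroup N) := by
    rw [← hn]
    exact Subgroup.smul_mem_pointwise_smul (⟨q, h.1 hq⟩ : N) (MulAut.conj n)
      ((Sylow.ofCard (Q.subgroupOf N) (hc h) : Sylow r N) : Subgroup N) (mem_subgroupOf.2 hq)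
  exact mem_subgroupOf.1 h2

/-- one-sided invariance is invariance -/
lemma conj_of_le [Finite G] {Q Q' : Subgroup G} {n : G} (h : ∀ q ∈ Q, n * q * n⁻¹ ∈ Q')
    (hc : Nat.card Q = Nat.card Q') : ∀ q ∈ Q', n⁻¹ * q * n ∈ Q := by
  intro q hq
  let f : Q → Q' := fun x => ⟨n * x * n⁻¹, h x x.2⟩
  have hf : Function.Injective f := by
    intro x y hxy
    have h1 : n * x * n⁻¹ = n * y * n⁻¹ := congrArg Subtype.val hxy
    exact Subtype.ext (mul_left_cancel (mul_right_cancel h1))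
  have hfs : Function.Surjective f :=
    ((Nat.bijective_iff_injective_and_card f).2 ⟨hf, hc⟩).2
  obtain ⟨x, hx⟩ := hfs ⟨q, hq⟩
  have h1 : n * x * n⁻¹ = q := congrArg Subtype.val hx
  rw [← h1]
  have h2 : n⁻¹ * (n * x * n⁻¹) * n = x := by group
  rw [h2]
  exact x.2

/-- two `F`-invariant Sylow subgroups are conjugate by an element centralising `F` -/
lemma conj_inv [Finite G] {p r : ℕ} [Fact p.Prime] [Fact r.Prime] {N F Q Q' : Subgroup G}
    (hpN : ¬ p ∣ Nat.card N) (hF : IsPGroup p F) (hFN : Inv F N) (h : IsSyl r N Q)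
    (h' : IsSyl r N Q') (hQ : Inv F Q) (hQ' : Inv F Q') :
    ∃ n ∈ N ⊓ centralizer (F : Set G), ∀ q ∈ Q, n * q * n⁻¹ ∈ Q' := by
  obtain ⟨g, hgN, hg⟩ := h.conj h'
  let X : Type _ := {n : G // n ∈ N ∧ ∀ q ∈ Q, n * q * n⁻¹ ∈ Q'}
  let act : MulAction F X :=
    { smul := fun f n => ⟨(f : G) * n.1 * (f : G)⁻¹, hFN f f.2 _ n.2.1, fun q hq => by
        have h1 : (f : G) * n.1 * (f : G)⁻¹ * q * ((f : G) * n.1 * (f : G)⁻¹)⁻¹ =
            f * (n.1 * ((f : G)⁻¹ * q * (f : G)⁻¹⁻¹) * (n.1)⁻¹) * (f : G)⁻¹ := by group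
        rw [h1]
        exact hQ' f f.2 _ (n.2.2 _ (hQ _ (inv_mem f.2) q hq))⟩
      one_smul := fun n => Subtype.ext (by
        change ((1 : F) : G) * n.1 * ((1 : F) : G)⁻¹ = n.1
        simp)
      mul_smul := fun f f' n => Subtype.ext (by
        change ((f * f' : F) : G) * n.1 * ((f * f' : F) : G)⁻¹ =
          f * (f' * n.1 * (f' : G)⁻¹) * (f : G)⁻¹
        push_cast
        group) }
  have hX : ¬ p ∣ Nat.card X := by
    let K : Subgroup G := N ⊓ normalizer (Q : Set G)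
    have e : X ≃ K :=
      { toFun := fun n => ⟨g⁻¹ * n.1, Subgroup.mem_inf.2 ⟨mul_mem (inv_mem hgN) n.2.1, by
          have h1 : ∀ q ∈ Q, (g⁻¹ * n.1) * q * (g⁻¹ * n.1)⁻¹ ∈ Q := fun q hq => by
            have h2 := conj_of_le hg (h.2.trans h'.2.symm) _ (n.2.2 q hq)
            have h3 : (g⁻¹ * n.1) * q * (g⁻¹ * n.1)⁻¹ = g⁻¹ * (n.1 * q * (n.1)⁻¹) * g := by group
            rw [h3]
            exact h2
          rw [mem_normalizer_iff]
          intro q
          refine ⟨fun hq => h1 q hq, fun hq => ?_⟩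
          have h2 := conj_of_le h1 rfl _ hq
          have h3 : (g⁻¹ * n.1)⁻¹ * (g⁻¹ * n.1 * q * (g⁻¹ * n.1)⁻¹) * (g⁻¹ * n.1) = q := by group
          rwa [h3] at h2⟩⟩
        invFun := fun k => ⟨g * k.1, mul_mem hgN (Subgroup.mem_inf.1 k.2).1, fun q hq => by
          have h1 := hg _ ((mem_normalizer_iff.1 (Subgroup.mem_inf.1 k.2).2 q).1 hq)
          have h2 : g * k.1 * q * (g * k.1)⁻¹ = g * (k.1 * q * (k.1)⁻¹) * g⁻¹ := by group
          rw [h2]
          exact h1⟩
        left_inv := fun n => Subtype.ext (by simp)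
        right_inv := fun k => Subtype.ext (by simp) }
    rw [Nat.card_congr e]
    exact fun hd => hpN (hd.trans (card_dvd_of_le inf_le_left))
  have hfin : Finite X := Subtype.finite
  obtain ⟨n, hn⟩ := hF.nonempty_fixed_point_of_prime_not_dvd_card X hX
  refine ⟨n, Subgroup.mem_inf.2 ⟨n.2.1, ?_⟩, n.2.2⟩
  rw [mem_centralizer_iff]
  intro f hf
  have h1 : (⟨f, hf⟩ : F) • n = n := hn ⟨f, hf⟩
  have h2 : f * n * f⁻¹ = n := congrArg Subtype.val h1
  exact mul_inv_eq_iff_eq_mul.1 h2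

/-- an invariant Sylow subgroup -/
lemma exists_inv_syl [Finite G] {p r : ℕ} [Fact p.Prime] [Fact r.Prime] {N F : Subgroup G}
    (hpN : ¬ p ∣ Nat.card N) (hF : IsPGroup p F) (hFN : Inv F N) :
    ∃ Q, IsSyl r N Q ∧ Inv F Q := by
  let X : Type _ := {Q : Subgroup G // IsSyl r N Q}
  have hcj : ∀ (f : F) (Q : X), IsSyl r N ((Q : Subgroup G).map (MulAut.conj (f : G)).toMonoidHom) := by
    intro f Q
    refine ⟨?_, ?_⟩
    · rintro _ ⟨q, hq, rfl⟩
      exact hFN f f.2 _ (Q.2.1 hq)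
    · rw [← Q.2.2]
      exact (Nat.card_congr ((Q : Subgroup G).equivMapOfInjective _
        (MulAut.conj (f : G)).injective).toEquiv).symm
  let act : MulAction F X :=
    { smul := fun f Q => ⟨(Q : Subgroup G).map (MulAut.conj (f : G)).toMonoidHom, hcj f Q⟩
      one_smul := fun Q => Subtype.ext (by
        change (Q : Subgroup G).map (MulAut.conj ((1 : F) : G)).toMonoidHom = Q
        ext x
        simp [mem_map])
      mul_smul := fun f f' Q => Subtype.ext (by
        change (Q : Subgroup G).map (MulAut.conj ((f * f' : F) : G)).toMonoidHom =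
          ((Q : Subgroup G).map (MulAut.conj (f' : G)).toMonoidHom).map
            (MulAut.conj (f : G)).toMonoidHom
        rw [Subgroup.map_map]
        congr 1
        ext x
        simp [mul_assoc]) }
  have hX : ¬ p ∣ Nat.card X := by
    have e : X ≃ Sylow r N :=
      { toFun := fun Q => Sylow.ofCard ((Q : Subgroup G).subgroupOf N) (by
          rw [Nat.card_congr (Subgroup.subgroupOfEquivOfLe Q.2.1).toEquiv]
          exact Q.2.2)
        invFun := fun Q => ⟨_, isSyl_map Q⟩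
        left_inv := fun Q => Subtype.ext (by
          change ((Q : Subgroup G).subgroupOf N).map N.subtype = Q
          rw [Subgroup.map_subgroupOf_eq_of_le Q.2.1])
        right_inv := fun Q => Sylow.ext (by
          change ((Q : Subgroup N).map N.subtype).subgroupOf N = Q
          exact comap_map_eq_self_of_injective N.subtype_injective _) }
    rw [Nat.card_congr e]
    intro hd
    have h1 : Nat.card (Sylow r N) ∣ ((default : Sylow r N) : Subgroup N).index :=
      Sylow.card_dvd_index _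
    exact hpN (hd.trans (h1.trans (index_dvd_card _)))
  have hfin : Finite X := Subtype.finite
  obtain ⟨Q, hQ⟩ := hF.nonempty_fixed_point_of_prime_not_dvd_card X hX
  refine ⟨Q, Q.2, fun x hx q hq => ?_⟩
  have h1 : (⟨x, hx⟩ : F) • Q = Q := hQ ⟨x, hx⟩
  have h2 : (Q : Subgroup G).map (MulAut.conj x).toMonoidHom = Q := congrArg Subtype.val h1
  rw [← h2]
  exact ⟨q, hq, rfl⟩

end

end Vale.Agent.P240.R2.H918
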