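import Vale.Agent.P240.R2.H918.Cent

/-!
Coprime action of an elementary abelian `p`-group `A` on a `p'`-group `N`: if at most two
hyperplanes `H`, `H'` of `A` containing `B` (of index `p²` in `A`) have more fixed points than `A`,
then `C_N(H) C_N(H') = C_N(B)`.
-/

namespace Vale.Agent.P240.R2.H918

open Subgroup Vale.Agent.P240.K

section
variable {G : Type*} [Group G]

lemma wt_pos {Λ : List (Subgroup G × ℕ)} (h : ∀ a ∈ Λ, 2 ≤ a.2) (F : Subgroup G) :
    0 < wt Λ F := by
  classical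
  induction Λ with
  | nil => rw [wt_nil]; norm_num
  | cons a Λ ih =>
    have h1 : wt (a :: Λ) F = (if F ≤ a.1 then (1 : ℤ) else (a.2 : ℤ)) * wt Λ F := by
      simp [wt]
    rw [h1]
    have h2 := ih fun b hb => h b (List.mem_cons_of_mem _ hb)
    have h3 : (2 : ℤ) ≤ a.2 := by exact_mod_cast h a List.mem_cons_self
    split_ifs
    · linarith
    · positivity

/-- weights are monotone, strictly if some listed subgroup separates -/
lemma wt_mono {Λ : List (Subgroup G × ℕ)} (h : ∀ a ∈ Λ, 2 ≤ a.2) {F F' : Subgroup G}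
    (hF : F ≤ F') : wt Λ F ≤ wt Λ F' ∧
      ((∃ a ∈ Λ, F ≤ a.1 ∧ ¬ F' ≤ a.1) → wt Λ F < wt Λ F') := by
  classical
  induction Λ with
  | nil => exact ⟨by rw [wt_nil, wt_nil], fun ⟨a, ha, _⟩ => by simp at ha⟩
  | cons a Λ ih =>
    have h1 : ∀ F, wt (a :: Λ) F = (if F ≤ a.1 then (1 : ℤ) else (a.2 : ℤ)) * wt Λ F := by
      intro F
      simp [wt]
    obtain ⟨h2, h2'⟩ := ih fun b hb => h b (List.mem_cons_of_mem _ hb)
    have hp := wt_pos (fun b hb => h b (List.mem_cons_of_mem _ hb)) F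
    have hp' := wt_pos (fun b hb => h b (List.mem_cons_of_mem _ hb)) F'
    have h3 : (2 : ℤ) ≤ a.2 := by exact_mod_cast h a List.mem_cons_self
    rw [h1, h1]
    by_cases c' : F' ≤ a.1
    · rw [if_pos c', if_pos (hF.trans c')]
      refine ⟨by linarith, ?_⟩
      rintro ⟨b, hb, hb1, hb2⟩
      rcases List.mem_cons.1 hb with rfl | hb
      · exact absurd c' hb2
      · have := h2' ⟨b, hb, hb1, hb2⟩
        linarith
    · rw [if_neg c']
      by_cases c : F ≤ a.1
      · rw [if_pos c]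
        refine ⟨by nlinarith, fun _ => by nlinarith⟩
      · rw [if_neg c]
        refine ⟨by nlinarith, ?_⟩
        rintro ⟨b, hb, hb1, hb2⟩
        rcases List.mem_cons.1 hb with rfl | hb
        · exact absurd hb1 c
        · have := h2' ⟨b, hb, hb1, hb2⟩
          nlinarith

/-- two different hyperplanes generate -/
lemma sup_eq_of_card [Finite G] {p : ℕ} [hp : Fact p.Prime] {A H H' : Subgroup G} (hH : H ≤ A)
    (hH' : H' ≤ A) (c : Nat.card H * p = Nat.card A) (c' : Nat.card H' * p = Nat.card A)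
    (hne : H ≠ H') : H ⊔ H' = A := by
  refine le_antisymm (sup_le hH hH') ?_
  have h1 : Nat.card H ∣ Nat.card (H ⊔ H' : Subgroup G) := card_dvd_of_le le_sup_left
  have h2 : Nat.card (H ⊔ H' : Subgroup G) ∣ Nat.card A := card_dvd_of_le (sup_le hH hH')
  obtain ⟨m, hm⟩ := h1
  rw [hm, ← c] at h2
  have h3 : m ∣ p := Nat.dvd_of_mul_dvd_mul_left Nat.card_pos h2
  rcases (Nat.dvd_prime hp.out).1 h3 with h | h
  · exfalso
    rw [h, mul_one] at hm
    have h4 : H = H ⊔ H' := eq_of_le_of_card_ge le_sup_left hm.le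
    have h5 : H' ≤ H := h4 ▸ le_sup_right
    have h6 : Nat.card H = Nat.card H' := Nat.eq_of_mul_eq_mul_right hp.out.pos (c.trans c'.symm)
    exact hne (eq_of_le_of_card_ge h5 h6.le).symm
  · rw [h, c] at hm
    exact (eq_of_le_of_card_ge (sup_le hH hH') hm.symm.le).symm.le

lemma inf_cent_le {N F F' : Subgroup G} (h : F ≤ F') :
    N ⊓ centralizer (F' : Set G) ≤ N ⊓ centralizer (F : Set G) :=
  inf_le_inf_left _ (centralizer_le h)

/-- the order formula for two hyperplanes -/
theorem card_two [Finite G] {p : ℕ} [hp : Fact p.Prime] {A N B H H' : Subgroup G}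
    (hAc : ∀ x ∈ A, ∀ y ∈ A, x * y = y * x) (hAp : ∀ x ∈ A, x ^ p = 1)
    (hpN : ¬ p ∣ Nat.card N) (hAN : ∀ x ∈ A, ∀ q ∈ N, x * q * x⁻¹ ∈ N)
    (hBH : B ≤ H) (hBH' : B ≤ H') (hH : H ≤ A) (hH' : H' ≤ A)
    (c : Nat.card H * p = Nat.card A) (c' : Nat.card H' * p = Nat.card A) (hne : H ≠ H')
    (hact : ∀ K, B ≤ K → K ≤ A → Nat.card K * p = Nat.card A → K ≠ H → K ≠ H' →
      N ⊓ centralizer (K : Set G) ≤ centralizer (A : Set G)) :
    Nat.card (N ⊓ centralizer (B : Set G) : Subgroup G) *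
        Nat.card (N ⊓ centralizer (A : Set G) : Subgroup G) =
      Nat.card (N ⊓ centralizer (H : Set G) : Subgroup G) *
        Nat.card (N ⊓ centralizer (H' : Set G) : Subgroup G) := by
  classical
  obtain ⟨Λ, hΛ, hw⟩ := exists_weights_gen hAc hAp hpN hAN
  have h2 : ∀ a ∈ Λ, 2 ≤ a.2 := fun a ha => (hΛ a ha).1
  have key : wt Λ A * wt Λ B = wt Λ H * wt Λ H' := by
    rw [wt, wt, wt, wt, ← List.prod_map_mul, ← List.prod_map_mul]
    congr 1
    refine List.map_congr_left fun a ha => ?_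
    by_cases hA : A ≤ a.1
    · rw [if_pos hA, if_pos ((hBH.trans hH).trans hA), if_pos (hH.trans hA), if_pos (hH'.trans hA)]
    · rw [if_neg hA]
      by_cases hB : B ≤ a.1
      · rw [if_pos hB]
        by_cases h : H ≤ a.1
        · have h' : ¬ H' ≤ a.1 := fun h' =>
            hA ((sup_eq_of_card hH hH' c c' hne) ▸ sup_le h h')
          rw [if_pos h, if_neg h']
          ring
        · rw [if_neg h]
          by_cases h' : H' ≤ a.1
          · rw [if_pos h']
          · exfalso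
            set K : Subgroup G := A ⊓ a.1 with hK
            have hcK : Nat.card K * p = Nat.card A := (hΛ a ha).2 A le_rfl hA
            have hKA : K ≤ A := inf_le_left
            have hle := hact K (le_inf (hBH.trans hH) hB) hKA hcK
              (fun e => h (e ▸ inf_le_right)) (fun e => h' (e ▸ inf_le_right))
            have hcard : Nat.card (N ⊓ centralizer (K : Set G) : Subgroup G) =
                Nat.card (N ⊓ centralizer (A : Set G) : Subgroup G) := by
              rw [le_antisymm (le_inf inf_le_left hle) (inf_cent_le hKA)]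
            have e1 := hw K hKA
            have e2 := hw A le_rfl
            rw [hcard] at e1
            have hpos : (0 : ℤ) < Nat.card (N ⊓ centralizer (A : Set G) : Subgroup G) := by
              exact_mod_cast Nat.card_pos
            have e3 : wt Λ K = wt Λ A :=
              mul_left_cancel₀ hpos.ne' (e1.symm.trans e2)
            exact absurd e3 ((wt_mono h2 hKA).2 ⟨a, ha, inf_le_right, hA⟩).ne
      · rw [if_neg hB, if_neg fun h => hB (hBH.trans h), if_neg fun h => hB (hBH'.trans h)]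
  have e1 := hw A le_rfl
  have e2 := hw B (hBH.trans hH)
  have e3 := hw H hH
  have e4 := hw H' hH'
  have p1 := wt_pos h2 H
  have p2 := wt_pos h2 H'
  have e5 : ((Nat.card (N ⊓ centralizer (B : Set G) : Subgroup G) : ℤ) *
      Nat.card (N ⊓ centralizer (A : Set G) : Subgroup G)) * (wt Λ H * wt Λ H') =
      (Nat.card (N ⊓ centralizer (H : Set G) : Subgroup G) *
        Nat.card (N ⊓ centralizer (H' : Set G) : Subgroup G)) * (wt Λ H * wt Λ H') := by
    calc _ = ((Nat.card (N ⊓ centralizer (A : Set G) : Subgroup G) : ℤ) * wt Λ A) *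
          (Nat.card (N ⊓ centralizer (B : Set G) : Subgroup G) * wt Λ B) := by
          rw [← key]; ring
      _ = (Nat.card (N ⊓ centralizer (H : Set G) : Subgroup G) * wt Λ H) *
          (Nat.card (N ⊓ centralizer (H' : Set G) : Subgroup G) * wt Λ H') := by
          rw [← e1, ← e2, ← e3, ← e4]
      _ = _ := by ring
  have e6 := mul_right_cancel₀ (mul_pos p1 p2).ne' e5
  exact_mod_cast e6

/-- a product of two subgroups of the right order is everything -/
lemma mul_eq_of_card [Finite G] {W U V : Subgroup G} (hU : U ≤ W) (hV : V ≤ W)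
    (h : Nat.card W * Nat.card (U ⊓ V : Subgroup G) ≤ Nat.card U * Nat.card V) :
    ∀ w ∈ W, ∃ u ∈ U, ∃ v ∈ V, w = u * v := by
  classical
  have := Fintype.ofFinite G
  let f : U × V → W := fun t => ⟨t.1 * t.2, mul_mem (hU t.1.2) (hV t.2.2)⟩
  have h1 : ((Finset.univ : Finset (U × V))).card ≤
      Fintype.card (U ⊓ V : Subgroup G) * (Finset.univ.image f).card := by
    refine Finset.card_le_mul_card_image _ _ fun w hw => ?_
    obtain ⟨t₀, _, ht₀⟩ := Finset.mem_image.1 hw
    refine (Finset.card_le_card_of_injOn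
      (t := (Finset.univ : Finset (U ⊓ V : Subgroup G)))
      (fun t => if c : (t₀.1 : G)⁻¹ * t.1 ∈ U ⊓ V then ⟨_, c⟩ else 1)
      (fun _ _ => Finset.mem_coe.2 (Finset.mem_univ _)) ?_).trans_eq Finset.card_univ
    have hm : ∀ t ∈ (Finset.univ.filter fun t => f t = w), (t₀.1 : G)⁻¹ * t.1 ∈ U ⊓ V := by
      intro t ht
      have ht' := (Finset.mem_filter.1 ht).2
      rw [← ht₀] at ht'
      have e : (t.1 : G) * t.2 = t₀.1 * t₀.2 := congrArg Subtype.val ht'
      refine mem_inf.2 ⟨U.mul_mem (U.inv_mem t₀.1.2) t.1.2, ?_⟩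
      have e2 : (t₀.1 : G)⁻¹ * t.1 = t₀.2 * (t.2 : G)⁻¹ := by
        rw [eq_mul_inv_iff_mul_eq, mul_assoc, e]
        group
      rw [e2]
      exact V.mul_mem t₀.2.2 (V.inv_mem t.2.2)
    intro t ht t' ht' e
    have c := hm t (Finset.mem_coe.1 ht)
    have c' := hm t' (Finset.mem_coe.1 ht')
    simp only [dif_pos c, dif_pos c'] at e
    have e1 : (t₀.1 : G)⁻¹ * t.1 = (t₀.1 : G)⁻¹ * t'.1 := congrArg Subtype.val e
    have e2 : (t.1 : G) = t'.1 := mul_left_cancel e1
    have e3 : (t.1 : G) * t.2 = t'.1 * t'.2 := by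
      have h5 := (Finset.mem_filter.1 (Finset.mem_coe.1 ht)).2.trans
        (Finset.mem_filter.1 (Finset.mem_coe.1 ht')).2.symm
      exact congrArg Subtype.val h5
    rw [e2] at e3
    exact Prod.ext (Subtype.ext e2) (Subtype.ext (mul_left_cancel e3))
  rw [Finset.card_univ, Fintype.card_prod] at h1
  simp only [Nat.card_eq_fintype_card] at h
  have h2 : Fintype.card W ≤ (Finset.univ.image f).card := by
    have h3 : Fintype.card W * Fintype.card (U ⊓ V : Subgroup G) ≤
        (Finset.univ.image f).card * Fintype.card (U ⊓ V : Subgroup G) := by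
      rw [mul_comm (Finset.univ.image f).card]
      exact h.trans h1
    exact Nat.le_of_mul_le_mul_right h3 Fintype.card_pos
  have h4 : Finset.univ.image f = Finset.univ :=
    (Finset.card_eq_iff_eq_univ _).1 (le_antisymm (Finset.card_le_univ _) h2)
  intro w hw
  have h5 : (⟨w, hw⟩ : W) ∈ Finset.univ.image f := h4 ▸ Finset.mem_univ _
  obtain ⟨t, _, ht⟩ := Finset.mem_image.1 h5
  exact ⟨t.1, t.1.2, t.2, t.2.2, (congrArg Subtype.val ht).symm⟩

/-- **Wielandt**: if only `H` and `H'` are active above `B` then `C_N(B) = C_N(H) C_N(H')`. -/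
theorem cent_eq_mul [Finite G] {p : ℕ} [hp : Fact p.Prime] {A N B H H' : Subgroup G}
    (hAc : ∀ x ∈ A, ∀ y ∈ A, x * y = y * x) (hAp : ∀ x ∈ A, x ^ p = 1)
    (hpN : ¬ p ∣ Nat.card N) (hAN : ∀ x ∈ A, ∀ q ∈ N, x * q * x⁻¹ ∈ N)
    (hBH : B ≤ H) (hBH' : B ≤ H') (hH : H ≤ A) (hH' : H' ≤ A)
    (c : Nat.card H * p = Nat.card A) (c' : Nat.card H' * p = Nat.card A) (hne : H ≠ H')
    (hact : ∀ K, B ≤ K → K ≤ A → Nat.card K * p = Nat.card A → K ≠ H → K ≠ H' →
      N ⊓ centralizer (K : Set G) ≤ centralizer (A : Set G)) :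
    ∀ x ∈ N ⊓ centralizer (B : Set G), ∃ u ∈ N ⊓ centralizer (H : Set G),
      ∃ v ∈ N ⊓ centralizer (H' : Set G), x = u * v := by
  refine mul_eq_of_card (inf_cent_le hBH) (inf_cent_le hBH') ?_
  have h1 : (N ⊓ centralizer (H : Set G)) ⊓ (N ⊓ centralizer (H' : Set G)) =
      N ⊓ centralizer (A : Set G) := by
    refine le_antisymm ?_ (le_inf (inf_cent_le hH) (inf_cent_le hH'))
    rintro x ⟨⟨hx, hx1⟩, -, hx2⟩
    refine mem_inf.2 ⟨hx, ?_⟩
    have h2 : A ≤ centralizer ({x} : Set G) := by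
      rw [← sup_eq_of_card hH hH' c c' hne]
      refine sup_le (fun y hy => ?_) (fun y hy => ?_)
      · rw [mem_centralizer_iff]
        rintro z rfl
        exact (mem_centralizer_iff.1 hx1 y hy).symm
      · rw [mem_centralizer_iff]
        rintro z rfl
        exact (mem_centralizer_iff.1 hx2 y hy).symm
    rw [mem_centralizer_iff]
    intro y hy
    exact (mem_centralizer_iff.1 (h2 hy) x rfl).symm
  rw [h1]
  exact (card_two hAc hAp hpN hAN hBH hBH' hH hH' c c' hne hact).le

/-- **Permutability**: if only `H` and `H'` are active above `H ⊓ H'` then `C_N(H)` and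
`C_N(H')` permute. -/
theorem W_perm [Finite G] {p : ℕ} [hp : Fact p.Prime] {A N H H' : Subgroup G}
    (hAc : ∀ x ∈ A, ∀ y ∈ A, x * y = y * x) (hAp : ∀ x ∈ A, x ^ p = 1)
    (hpN : ¬ p ∣ Nat.card N) (hAN : ∀ x ∈ A, ∀ q ∈ N, x * q * x⁻¹ ∈ N)
    (hH : H ≤ A) (hH' : H' ≤ A)
    (c : H.relIndex A = p) (c' : H'.relIndex A = p) (hne : H ≠ H')
    (hact : ∀ K ≤ A, K.relIndex A = p → H ⊓ H' ≤ K → K ≠ H → K ≠ H' →
      N ⊓ centralizer (K : Set G) ≤ centralizer (A : Set G)) :
    ∀ x ∈ N ⊓ centralizer (H : Set G), ∀ y ∈ N ⊓ centralizer (H' : Set G),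
      ∃ y' ∈ N ⊓ centralizer (H' : Set G), ∃ x' ∈ N ⊓ centralizer (H : Set G),
        x * y = y' * x' := by
  have e : ∀ K ≤ A, K.relIndex A = p ↔ Nat.card K * p = Nat.card A := by
    intro K hK
    have h1 : Nat.card K * K.relIndex A = Nat.card A := by
      rw [← relIndex_bot_left, ← relIndex_bot_left (H := A)]
      exact relIndex_mul_relIndex _ _ _ bot_le hK
    constructor
    · rintro rfl
      exact h1
    · intro h2
      exact Nat.eq_of_mul_eq_mul_left Nat.card_pos (h1.trans h2.symm)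
  have key := cent_eq_mul (B := H ⊓ H') hAc hAp hpN hAN inf_le_right inf_le_left hH' hH
    ((e _ hH').1 c') ((e _ hH).1 c) hne.symm
    fun K h1 h2 h3 h4 h5 => hact K h2 ((e K h2).2 h3) h1 h5 h4
  intro x hx y hy
  exact key _ (mul_mem (inf_cent_le inf_le_left hx) (inf_cent_le inf_le_right hy))

end

end Vale.Agent.P240.R2.H918
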