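import Vale.Agent.P240.R2.H918.W

/-!
`W_perm` for subgroups of the type `F` (the form used by LEMMA T).
-/

namespace Vale.Agent.P240.R2.H918

open Subgroup Vale.Agent.P240.K

section
variable {G : Type*} [Group G]

lemma card_map_sub (F : Subgroup G) (H : Subgroup F) :
    Nat.card (H.map F.subtype : Subgroup G) = Nat.card H :=
  (Nat.card_congr (H.equivMapOfInjective F.subtype F.subtype_injective).toEquiv).symm

lemma relIndex_of_card [Finite G] {p : ℕ} {F K : Subgroup G} (hK : K ≤ F)
    (c : Nat.card F = p * Nat.card K) : K.relIndex F = p := by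
  have h1 : Nat.card K * K.relIndex F = Nat.card F := by
    rw [← relIndex_bot_left, ← relIndex_bot_left (H := F)]
    exact relIndex_mul_relIndex _ _ _ bot_le hK
  rw [c, mul_comm p] at h1
  exact Nat.eq_of_mul_eq_mul_left Nat.card_pos h1

lemma card_of_relIndex [Finite G] {p : ℕ} {F K : Subgroup G} (hK : K ≤ F)
    (c : K.relIndex F = p) : Nat.card F = p * Nat.card K := by
  have h1 : Nat.card K * K.relIndex F = Nat.card F := by
    rw [← relIndex_bot_left, ← relIndex_bot_left (H := F)]
    exact relIndex_mul_relIndex _ _ _ bot_le hK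
  rw [← h1, c, mul_comm]

/-- `W_perm` in the form needed for the field `W` of `Vale.Agent.P240.LT.Sys`. -/
theorem W_sub [Finite G] {p : ℕ} [hp : Fact p.Prime] {F N : Subgroup G}
    (hAc : ∀ x ∈ F, ∀ y ∈ F, x * y = y * x) (hAp : ∀ x ∈ F, x ^ p = 1)
    (hpN : ¬ p ∣ Nat.card N) (hAN : ∀ x ∈ F, ∀ q ∈ N, x * q * x⁻¹ ∈ N)
    (H H' : Subgroup F) (c : Nat.card F = p * Nat.card H) (c' : Nat.card F = p * Nat.card H')
    (hne : H ≠ H')
    (hact : ∀ K : Subgroup F, Nat.card F = p * Nat.card K → H ⊓ H' ≤ K → K ≠ H → K ≠ H' →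
      N ⊓ centralizer ((K.map F.subtype : Subgroup G) : Set G) ≤ centralizer (F : Set G)) :
    ∀ x ∈ N ⊓ centralizer ((H.map F.subtype : Subgroup G) : Set G),
    ∀ y ∈ N ⊓ centralizer ((H'.map F.subtype : Subgroup G) : Set G),
      ∃ y' ∈ N ⊓ centralizer ((H'.map F.subtype : Subgroup G) : Set G),
      ∃ x' ∈ N ⊓ centralizer ((H.map F.subtype : Subgroup G) : Set G), x * y = y' * x' := by
  have hinj : Function.Injective (map F.subtype) := map_injective F.subtype_injective
  refine W_perm hAc hAp hpN hAN (map_subtype_le H) (map_subtype_le H')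
    (relIndex_of_card (map_subtype_le H) (by rw [card_map_sub, c]))
    (relIndex_of_card (map_subtype_le H') (by rw [card_map_sub, c'])) (fun e => hne (hinj e)) ?_
  intro K hK hKc hle h1 h2
  have e : (K.subgroupOf F).map F.subtype = K := map_subgroupOf_eq_of_le hK
  have h3 := hact (K.subgroupOf F)
    (by rw [← card_map_sub, e]; exact card_of_relIndex hK hKc)
    (by
      intro z hz
      rw [mem_subgroupOf]
      refine hle ⟨⟨z, hz.1, rfl⟩, ⟨z, hz.2, rfl⟩⟩)
    (fun h => h1 (by rw [← e, h])) (fun h => h2 (by rw [← e, h]))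
  rwa [e] at h3

end

end Vale.Agent.P240.R2.H918
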